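import Vale.Agent.P004G.H394.Moll4
import Vale.Agent.P004.R2.H123.Iface

/-!
# P004, exponential tail: the main term with an exponentially small error

Copies of `P004G.Moll.main_model` and `P004G.Moll.part4` for the mollifier `Mfx`, with error
`exp (2 K - c K)`.
-/

open Real MeasureTheory Set Filter Topology

namespace P004G

namespace H760

open P004G.Moll
open P004G.H128 (bet_zero)
open P004.H128 (EN_congr EN_mono EN_nonneg EN_const_mul EN_sum Xf_mul Xf_CM sum_wp_prod)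
open P004 (StRepA StRepB StRepC)

lemma pow_le_expx (A : ℕ) : ∃ C : ℝ, 1 ≤ C ∧ ∀ K c : ℝ, 1 ≤ K → c ≤ 1 / 2 →
    K ^ A * Real.exp K ≤ C * Real.exp (2 * K - c * K) := by
  refine ⟨max 1 ((2 : ℝ) ^ A * (A.factorial : ℝ)), le_max_left _ _, fun K c hK hc => ?_⟩
  have hK0 : 0 < K := by linarith
  have h1 : (K / 2) ^ A / (A.factorial : ℝ) ≤ Real.exp (K / 2) :=
    Real.pow_div_factorial_le_exp (K / 2) (by positivity) A
  have h2 : K ^ A ≤ 2 ^ A * A.factorial * Real.exp (K / 2) := by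
    rw [div_le_iff₀ (by positivity), div_pow, div_le_iff₀ (by positivity)] at h1
    linarith
  have h4 : c * K ≤ K / 2 := by nlinarith
  calc K ^ A * Real.exp K ≤ (2 ^ A * A.factorial * Real.exp (K / 2)) * Real.exp K := by gcongr
    _ = 2 ^ A * A.factorial * Real.exp (K / 2 + K) := by rw [Real.exp_add]; ring
    _ ≤ max 1 ((2 : ℝ) ^ A * (A.factorial : ℝ)) * Real.exp (2 * K - c * K) := by
        gcongr
        · exact le_max_right _ _
        · linarith

lemma exp_main_gex {K c : ℝ} (hK : 1 ≤ K) (hc : c ≤ 1 / 2) : 1 ≤ Real.exp (2 * K - c * K) := by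
  refine Real.one_le_exp ?_
  have h4 : c * K ≤ 1 / 2 * K := mul_le_mul_of_nonneg_right hc (by linarith)
  linarith

variable [Crv]

/-- the random model bound for the main term -/
lemma main_modelx (hCo : StCoef) (hPN : StPassN) (hLN : StLN) (hR2 : StR2x) (hR3 : StR3x)
    (hRA : StRepA) (hRB : StRepB) :
    ∃ C c : ℝ, 1 ≤ C ∧ 0 < c ∧ c ≤ 1 / 2 ∧ ∀ (Y : ℕ) (K : ℝ) (S : Finset ℕ) (m : ℕ → ℝ) (N : ℕ),
    3 ≤ Y → 1 ≤ K → K ≤ Real.log Y → (∀ a ∈ S, a ≠ 0) →
    (∀ X : ℕ → ℝ, CM X → Mfx (Real.log Y) K 0 ⌈Real.log Y⌉₊ X = ∑ a ∈ S, m a * X a) →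
    yk (Real.log Y) 0 < N →
    EN N (fun X => (Dp S m X * FX Y (fun x => psi Y x * Real.exp (K / Real.log Y * x)) X -
      cmain Y K) ^ 2) ≤ C * Real.exp (2 * K - c * K) := by
  obtain ⟨CR, hCR, AR, hR2'⟩ := hR2
  obtain ⟨C3, c3, hC3, hc3, hR3'⟩ := hR3
  obtain ⟨CA, hCA, hA'⟩ := hRA AR
  obtain ⟨CB, hCB, hB'⟩ := hRB AR
  obtain ⟨CP, hCP, hPow⟩ := pow_le_expx (AR + 2 * (AR + 2))
  set DA := 16 * (CR * 20 ^ AR) * (Real.exp (1 / 2) * CA) ^ 2 with hDA
  set DB := 16 * (CR * 20 ^ AR) * CB ^ 2 with hDB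
  refine ⟨max 1 (3 * (16 * C3 + DA * CP + DB * CP)), min c3 (1 / 2), le_max_left _ _,
    lt_min hc3 (by norm_num), min_le_right _ _, ?_⟩
  intro Y K S m N hY hK hKL hS0 hM hN
  have hL := logY_ge_one hY
  have hL0 : 0 < Real.log Y := by linarith
  have hK0 : 0 < K := by linarith
  have hw : 0 < wj Y 0 := by unfold wj; positivity
  have hY1 : 1 ≤ Y := by omega
  have hwL : wj Y 0 * 20 = Real.log Y := by
    unfold wj
    rw [pow_zero, mul_one]
    field_simp
  have hc' : min c3 (1 / 2) ≤ 1 / 2 := min_le_right _ _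
  set c := min c3 (1 / 2) with hcdef
  -- the second moment bound on a line
  have hline : ∀ σ : ℝ, 1 / (2 * Real.log Y) ≤ σ → σ ≤ 10 * K / Real.log Y → ∀ τ : ℝ,
      EN N (fun X => (∑ a ∈ S, m a * X a) ^ 2 * ‖LN N X (1 + σ + τ * Complex.I)‖ ^ 2) ≤
        (CR * 20 ^ AR * K ^ AR) * (1 + |τ| * wj Y 0) ^ (2 * AR) := by
    intro σ h1 h2 τ
    have h5 := hR2' (Real.log Y) K σ τ 0 N hL hK hKL h1 h2 hN
    have e5 : EN N (fun X => (∑ a ∈ S, m a * X a) ^ 2 * ‖LN N X (1 + (σ : ℂ) + τ * Complex.I)‖ ^ 2) =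
        EN N (fun X => (Mfx (Real.log Y) K (2 * 0) ⌈Real.log Y⌉₊ X) ^ 2 *
          ‖LN N X (1 + (σ : ℂ) + τ * Complex.I)‖ ^ 2) := by
      refine EN_congr fun ω => ?_
      rw [mul_zero, hM _ (Xf_CM ω)]
    rw [e5]
    refine h5.trans ?_
    rw [pow_zero, mul_one, div_one]
    have h6 : 1 + |τ| * Real.log Y ≤ 20 * (1 + |τ| * wj Y 0) := by
      rw [← hwL]
      linarith
    have h7 : (0 : ℝ) ≤ |τ| * wj Y 0 := by positivity
    have h8 : (1 : ℝ) ≤ 1 + |τ| * wj Y 0 := by linarith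
    have h9 : (0 : ℝ) ≤ |τ| * Real.log Y := by positivity
    calc CR * K ^ AR * (1 + |τ| * Real.log Y) ^ AR
        ≤ CR * K ^ AR * (20 * (1 + |τ| * wj Y 0)) ^ AR := by gcongr
      _ = CR * 20 ^ AR * K ^ AR * (1 + |τ| * wj Y 0) ^ AR := by
          rw [mul_pow 20]
          ring
      _ ≤ CR * 20 ^ AR * K ^ AR * (1 + |τ| * wj Y 0) ^ (2 * AR) :=
          mul_le_mul_of_nonneg_left (pow_le_pow_right₀ h8 (by omega)) (by positivity)
  -- piece A
  have hpA : EN N (fun X => (Dp S m X * FX Y (hA Y K) X - cmain Y K) ^ 2) ≤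
      16 * C3 * Real.exp (2 * K - c * K) := by
    have e1 : EN N (fun X => (Dp S m X * FX Y (hA Y K) X - cmain Y K) ^ 2) =
        EN N (fun X => cmain Y K ^ 2 * ‖(Mfx (Real.log Y) K 0 ⌈Real.log Y⌉₊ X : ℂ) *
          LN N X (1 + K / Real.log Y) - 1‖ ^ 2) := by
      refine EN_congr fun ω => ?_
      have e2 : (((Dp S m (Xf ω) * FX Y (hA Y K) (Xf ω) - cmain Y K : ℝ)) : ℂ) =
          (cmain Y K : ℂ) * ((Mfx (Real.log Y) K 0 ⌈Real.log Y⌉₊ (Xf ω) : ℂ) *
          LN N (Xf ω) (1 + K / Real.log Y) - 1) := by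
        rw [hM _ (Xf_CM ω)]
        push_cast
        rw [FX_A hCo hLN hY hK0.le ω]
        unfold Dp
        push_cast
        ring
      rw [← sq_abs, ← Real.norm_eq_abs, ← Complex.norm_real, e2, norm_mul, mul_pow,
        Complex.norm_real, Real.norm_eq_abs, sq_abs]
    rw [e1, EN_const_mul]
    have h1 := hR3' (Real.log Y) K N hL hK hKL hN
    have h2 : cmain Y K ^ 2 ≤ 16 * Real.exp (2 * K) := by
      calc cmain Y K ^ 2 ≤ (4 * Real.exp K) ^ 2 :=
            pow_le_pow_left₀ (cmain_nonneg hY hK0.le) (cmain_le hY hK0 hKL) 2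
        _ = 16 * Real.exp (2 * K) := by
            rw [mul_pow, ← Real.exp_nat_mul]
            norm_num
    have h3 : Real.exp (-c3 * K) ≤ Real.exp (-c * K) := by
      refine Real.exp_le_exp.2 ?_
      have h4 : c ≤ c3 := min_le_left _ _
      nlinarith [mul_le_mul_of_nonneg_right h4 hK0.le]
    have h5 : 0 ≤ EN N (fun X => ‖(Mfx (Real.log Y) K 0 ⌈Real.log Y⌉₊ X : ℂ) *
        LN N X (1 + K / Real.log Y) - 1‖ ^ 2) := EN_nonneg fun ω => by positivity
    calc cmain Y K ^ 2 * EN N (fun X => ‖(Mfx (Real.log Y) K 0 ⌈Real.log Y⌉₊ X : ℂ) *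
          LN N X (1 + K / Real.log Y) - 1‖ ^ 2)
        ≤ (16 * Real.exp (2 * K)) * (C3 * Real.exp (-c3 * K)) :=
          mul_le_mul h2 h1 h5 (by positivity)
      _ ≤ (16 * Real.exp (2 * K)) * (C3 * Real.exp (-c * K)) := by gcongr
      _ = 16 * C3 * Real.exp (2 * K - c * K) := by
          rw [sub_eq_add_neg, Real.exp_add, neg_mul]
          ring
  -- piece B
  have hpB : EN N (fun X => (Dp S m X * FX Y (hB Y K) X) ^ 2) ≤
      DA * CP * Real.exp (2 * K - c * K) := by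
    obtain ⟨g, hg1, hg2, hg3, hg4, hg5⟩ := hA' Y K hY hK
    have h1 := hPN Y S m (CR * 20 ^ AR * K ^ AR) (wj Y 0) (1 / (2 * Real.log Y)) AR N (hB Y K) g
      hY1 (by positivity) (by
        rw [div_le_iff₀ (by positivity)]
        linarith) (by positivity) hw (hB_meas Y K) hS0 hg1 hg2 hg4
      (fun x => by
        have := hg3 x
        unfold hB
        push_cast at this ⊢
        exact this)
      (fun τ => hline _ le_rfl (by
        rw [div_le_div_iff₀ (by positivity) hL0]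
        nlinarith) τ)
    have e1 : EN N (fun X => (Dp S m X * FX Y (hB Y K) X) ^ 2) =
        EN N (fun X => (∑ a ∈ S, m a * X a) ^ 2 * (∑' n : ℕ, bet (cfY Y (hB Y K)) n * X n) ^ 2) := by
      refine EN_congr fun ω => ?_
      unfold Dp FX
      ring
    rw [e1]
    refine h1.trans ?_
    have e2 : (Y : ℝ) ^ (1 / (2 * Real.log Y)) = Real.exp (1 / 2) := by
      rw [← Y_rpow hY (1 / 2)]
      congr 1
      field_simp
    rw [e2]
    have hint0 : 0 ≤ ∫ τ, ‖g τ‖ * (1 + |τ| * wj Y 0) ^ AR :=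
      integral_nonneg fun τ => by positivity
    calc 16 * (CR * 20 ^ AR * K ^ AR) * (Real.exp (1 / 2) *
          ∫ τ, ‖g τ‖ * (1 + |τ| * wj Y 0) ^ AR) ^ 2
        ≤ 16 * (CR * 20 ^ AR * K ^ AR) * (Real.exp (1 / 2) *
          (CA * K ^ (AR + 2) * Real.exp (K / 10))) ^ 2 := by gcongr
      _ = DA * (K ^ (AR + 2 * (AR + 2)) * Real.exp (K / 5)) := by
          have e3 : Real.exp (K / 5) = Real.exp (K / 10) ^ 2 := by
            rw [← Real.exp_nat_mul]
            congr 1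
            push_cast
            ring
          rw [hDA, e3]
          ring
      _ ≤ DA * (K ^ (AR + 2 * (AR + 2)) * Real.exp K) := by
          gcongr
          linarith
      _ ≤ DA * (CP * Real.exp (2 * K - c * K)) := by
          refine mul_le_mul_of_nonneg_left (hPow K c hK hc') (by positivity)
      _ = DA * CP * Real.exp (2 * K - c * K) := by ring
  -- piece C
  have hpC : EN N (fun X => (Dp S m X * FX Y (hC Y K) X) ^ 2) ≤
      DB * CP * Real.exp (2 * K - c * K) := by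
    obtain ⟨g, hg1, hg2, hg3, hg4, hg5⟩ := hB' Y K hY hK
    have h1 := hPN Y S m (CR * 20 ^ AR * K ^ AR) (wj Y 0) (2 * K / Real.log Y) AR N (hC Y K) g
      hY1 (by positivity) (by
        rw [div_le_iff₀ (by positivity)]
        linarith) (by positivity) hw (hC_meas Y K) hS0 hg1 hg2 hg4
      (fun x => by
        have := hg3 x
        unfold hC
        push_cast at this ⊢
        exact this)
      (fun τ => hline _ (by
        rw [div_le_div_iff₀ (by positivity) hL0]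
        nlinarith) (by
        rw [div_le_div_iff_of_pos_right hL0]
        linarith) τ)
    have e1 : EN N (fun X => (Dp S m X * FX Y (hC Y K) X) ^ 2) =
        EN N (fun X => (∑ a ∈ S, m a * X a) ^ 2 * (∑' n : ℕ, bet (cfY Y (hC Y K)) n * X n) ^ 2) := by
      refine EN_congr fun ω => ?_
      unfold Dp FX
      ring
    rw [e1]
    refine h1.trans ?_
    rw [Y_rpow hY (2 * K)]
    have hint0 : 0 ≤ ∫ τ, ‖g τ‖ * (1 + |τ| * wj Y 0) ^ AR :=
      integral_nonneg fun τ => by positivity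
    calc 16 * (CR * 20 ^ AR * K ^ AR) * (Real.exp (2 * K) *
          ∫ τ, ‖g τ‖ * (1 + |τ| * wj Y 0) ^ AR) ^ 2
        ≤ 16 * (CR * 20 ^ AR * K ^ AR) * (Real.exp (2 * K) *
          (CB * K ^ (AR + 2) * Real.exp (-(3 / 2) * K))) ^ 2 := by gcongr
      _ = DB * (K ^ (AR + 2 * (AR + 2)) * Real.exp K) := by
          have e3 : Real.exp K = (Real.exp (2 * K) * Real.exp (-(3 / 2) * K)) ^ 2 := by
            rw [← Real.exp_add, ← Real.exp_nat_mul]
            congr 1
            push_cast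
            ring
          rw [hDB, e3]
          ring
      _ ≤ DB * (CP * Real.exp (2 * K - c * K)) := by
          refine mul_le_mul_of_nonneg_left (hPow K c hK hc') (by positivity)
      _ = DB * CP * Real.exp (2 * K - c * K) := by ring
  have htot := EN_three (N := N)
    (F := fun X => Dp S m X * FX Y (fun x => psi Y x * Real.exp (K / Real.log Y * x)) X - cmain Y K)
    (A := fun X => Dp S m X * FX Y (hA Y K) X - cmain Y K)
    (B := fun X => Dp S m X * FX Y (hB Y K) X) (C := fun X => Dp S m X * FX Y (hC Y K) X)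
    (fun ω => by
      rw [FX_split hCo hLN hY hK0.le ω]
      ring) hpA hpB hpC
  refine htot.trans ?_
  calc 3 * (16 * C3 * Real.exp (2 * K - c * K) + DA * CP * Real.exp (2 * K - c * K) +
        DB * CP * Real.exp (2 * K - c * K))
      = (3 * (16 * C3 + DA * CP + DB * CP)) * Real.exp (2 * K - c * K) := by ring
    _ ≤ max 1 (3 * (16 * C3 + DA * CP + DB * CP)) * Real.exp (2 * K - c * K) := by
        gcongr
        exact le_max_right _ _

theorem part4x (hCo : StCoef) (hD : StDiv) (h0 : StTw0) (h1 : StTw1) (h2 : StTw2) (hPN : StPassN)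
    (hLim : StLim) (hLN : StLN) (hR2 : StR2x) (hR3 : StR3x) (hP : StPolyx) (hRA : StRepA)
    (hRB : StRepB) :
    ∃ C c : ℝ, 1 ≤ C ∧ 0 < c ∧ ∀ (Y : ℕ) (K : ℝ), 3 ≤ Y → 1 ≤ K →
    K ≤ Real.log Y ^ (1 / 8 : ℝ) →
    ∑ m ∈ sqZ Y, (Mfx (Real.log Y) K 0 ⌈Real.log Y⌉₊ (fun n => chi m n) * Fw Y (fun x => psi Y x * Real.exp (K / Real.log Y * x)) m -
      cmain Y K) ^ 2 ≤ C * Y * Real.exp (2 * K - c * K) := by
  obtain ⟨C₂, hC₂, A₂, hT2⟩ := tr2 hCo hD h2
  obtain ⟨C₁, hC₁, A₁, hT1⟩ := tr1 hCo hD h1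
  obtain ⟨C₀, hC₀, hT0⟩ := h0
  obtain ⟨CM', cM, hCM, hcM, hcM2, hMain⟩ := main_modelx hCo hPN hLN hR2 hR3 hRA hRB
  obtain ⟨E₂, hE₂, hEr2⟩ := err_bdd A₂
  obtain ⟨E₁, hE₁, hEr1⟩ := err_bdd A₁
  have hc0 := P004.H1.c0_pos
  refine ⟨max 1 (P004.H1.c0⁻¹ * (5040 * CM' + C₂ * E₂ + 8 * C₁ * E₁ + 16 * C₀)), cM,
    le_max_left _ _, hcM, ?_⟩
  intro Y K hY hK hK8
  have hL := logY_ge_one hY
  have hL0 : 0 < Real.log Y := by linarith
  have hK0 : 0 < K := by linarith
  have hKL : K ≤ Real.log Y := by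
    refine hK8.trans ?_
    calc Real.log Y ^ (1 / 8 : ℝ) ≤ Real.log Y ^ (1 : ℝ) :=
          Real.rpow_le_rpow_of_exponent_le hL (by norm_num)
      _ = Real.log Y := Real.rpow_one _
  have hY1 : (1 : ℝ) ≤ Y := by exact_mod_cast (by omega : 1 ≤ Y)
  have hY0 : (0 : ℝ) < Y := by linarith
  have hw : 0 < wj Y 0 := by unfold wj; positivity
  have hwL : wj Y 0 * 20 = Real.log Y := by
    unfold wj
    rw [pow_zero, mul_one]
    field_simp
  obtain ⟨S, m, hM, hS⟩ := hP (Real.log Y) K 0 ⌈Real.log Y⌉₊ hL hK hKL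
  have hS0 : ∀ a ∈ S, a ≠ 0 := fun a ha => (hS a ha).2.1.1
  set Λ := Real.exp (Real.log Y / 700) with hΛdef
  have hΛ : ∀ a ∈ S, (a : ℝ) ≤ Λ := by
    intro a ha
    refine (hS a ha).2.2.1.trans (le_of_eq ?_)
    rw [hΛdef]
    simp
  have hΛ1 : 1 ≤ Λ := Real.one_le_exp (by positivity)
  set U := Real.exp (wj Y 0) / Y with hUdef
  have hU0 : 0 < U := by positivity
  have hUexp : U = Real.exp (wj Y 0 - Real.log Y) := by
    rw [hUdef, Real.exp_sub, Real.exp_log hY0]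
  have hU1 : Real.exp (-Real.log Y) ≤ U := by
    rw [hUexp]
    exact Real.exp_le_exp.2 (by linarith)
  have hU2 : U ≤ 1 := by
    rw [hUexp]
    exact Real.exp_le_one_iff.2 (by linarith)
  have hlogΛ : 2 * Real.log Λ ≤ Real.log Y := by
    rw [hΛdef, Real.log_exp]
    linarith
  -- the weight
  set h : ℝ → ℝ := fun x => psi Y x * Real.exp (K / Real.log Y * x) with hh
  set b := Real.exp (3 * K) with hbdef
  have hb0 : 0 < b := Real.exp_pos _
  have hpsi : ∀ x, |psi Y x| ≤ 1 := by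
    intro x
    unfold psi
    rw [abs_mul, abs_of_nonneg (P004.Wf.eta_nonneg _), abs_of_nonneg (by
      linarith [P004.Wf.eta_le_one (x / (3 / 2 * Real.log Y))])]
    exact mul_le_one₀ (P004.Wf.eta_le_one _) (by linarith [P004.Wf.eta_le_one (x / (3 / 2 * Real.log Y))])
      (by linarith [P004.Wf.eta_nonneg (x / (3 / 2 * Real.log Y))])
  have hhb : ∀ x, |h x| ≤ b := by
    intro x
    simp only [hh]
    rw [abs_mul, abs_of_pos (Real.exp_pos _)]
    rcases le_or_gt x (3 * Real.log Y) with hx | hx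
    · calc |psi Y x| * Real.exp (K / Real.log Y * x) ≤ 1 * Real.exp (3 * K) := by
            refine mul_le_mul (hpsi x) (Real.exp_le_exp.2 ?_) (Real.exp_pos _).le zero_le_one
            calc K / Real.log Y * x ≤ K / Real.log Y * (3 * Real.log Y) := by gcongr
              _ = 3 * K := by field_simp
        _ = b := one_mul _
    · rw [P004.Wf.psi_zero hY x (Or.inr hx), abs_zero, zero_mul]
      exact hb0.le
  have hhm : Measurable h := by
    have h3 : Measurable (psi Y) := (P004.Wf.psi_smooth Y 0).continuous.measurable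
    simp only [hh]
    fun_prop
  have hfm : Measurable (cfY Y h) := cfY_meas hhm Y
  have hf0 : ∀ u, 0 < u → u < U → cfY Y h u = 0 := by
    intro u hu0 hu
    have h4 : Real.log (u * Y) < wj Y 0 := by
      rw [Real.log_lt_iff_lt_exp (by positivity)]
      rw [hUdef, lt_div_iff₀ hY0] at hu
      exact hu
    simp only [cfY, hh]
    rw [P004.Wf.psi_zero hY _ (Or.inl h4), zero_mul]
  have hfb : ∀ u, 0 < u → |cfY Y h u| ≤ b := fun u _ => hhb _
  obtain ⟨M, hM0, hMb⟩ := Fn_bdd hCo hb0 hU0 hfm hfb hf0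
  set cm := cmain Y K with hcm
  have hcm0 : 0 ≤ cm := cmain_nonneg hY hK0.le
  have hcm1 : cm ≤ 4 * Real.exp K := cmain_le hY hK0 hKL
  set P := ∑ a ∈ S, |m a| with hPdef
  have hP0 : 0 ≤ P := Finset.sum_nonneg fun _ _ => abs_nonneg _
  have hDb : ∀ k : ℤ, |Dp S m (fun n => chi k n)| ≤ P := fun k => Dp_abs_le S m k
  have hGb : ∀ k : ℤ, |Dp S m (fun n => chi k n) * Fn (cfY Y h) k - cm| ≤ P * M + cm := by
    intro k
    calc |Dp S m (fun n => chi k n) * Fn (cfY Y h) k - cm|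
        ≤ |Dp S m (fun n => chi k n) * Fn (cfY Y h) k| + |cm| := abs_sub _ _
      _ ≤ P * M + cm := by
          rw [abs_mul, abs_of_nonneg hcm0]
          exact add_le_add (mul_le_mul (hDb k) (hMb k) (abs_nonneg _) hP0) le_rfl
  have h3 := sqZ_le Y (by omega) hGb
  have e1 : ∑ k ∈ sqZ Y, (Mfx (Real.log Y) K 0 ⌈Real.log Y⌉₊ (fun n => chi k n) * Fw Y h k - cm) ^ 2 =
      ∑ k ∈ sqZ Y, (Dp S m (fun n => chi k n) * Fn (cfY Y h) k - cm) ^ 2 := by
    refine Finset.sum_congr rfl fun k _ => ?_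
    unfold Fw
    rw [hM _ (chi_CM k)]
    rfl
  rw [e1]
  refine h3.trans ?_
  -- the three moments
  have m2 := (abs_le.1 (hT2 (Real.log Y) Y U b Λ S m (cfY Y h) hL hY1 le_rfl hU1 hU2 hb0 hfm hfb
    hf0 (fun a ha => (hS a ha).1) (fun a ha => (hS a ha).2.1) hΛ hlogΛ)).2
  have m1 := (abs_le.1 (hT1 (Real.log Y) Y U b Λ S m (cfY Y h) hL hY1 hU1 hU2 hb0 hfm hfb
    hf0 (fun a ha => (hS a ha).1) (fun a ha => (hS a ha).2.1) hΛ)).1
  have m0 : ∑' k : ℤ, P004.H1.ah Y k ≤ 5040 * Y + C₀ := by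
    have h4 := hT0 Y 1 hY1 H3.good_one
    have e3 : Eh Y 1 = ∑' k : ℤ, P004.H1.ah Y k - 5040 * Y := by
      unfold Eh
      rw [rho_one, mul_one]
      congr 1
      refine tsum_congr fun k => ?_
      rw [chi_one, mul_one]
    have e4 : √((1 : ℕ) : ℝ) * dv 1 = 1 := by
      simp [dv]
    rw [e3, e4, mul_one] at h4
    linarith [(abs_le.1 h4).2]
  -- the error terms
  have hΛ4 : Λ ^ 4 / U ≤ Y * Real.exp (-(Real.log Y / 25)) := by
    rw [hΛdef, ← Real.exp_nat_mul, hUexp, ← Real.exp_sub]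
    have e5 : (Y : ℝ) * Real.exp (-(Real.log Y / 25)) =
        Real.exp (Real.log Y + -(Real.log Y / 25)) := by
      rw [Real.exp_add, Real.exp_log hY0]
    rw [e5]
    refine Real.exp_le_exp.2 ?_
    push_cast
    linarith
  have hb2 : b ^ 2 = Real.exp (6 * K) := by
    rw [hbdef, ← Real.exp_nat_mul]
    congr 1
    push_cast
    ring
  have hge := exp_main_gex (c := cM) hK hcM2
  set T := Real.exp (2 * K - cM * K) with hTdef
  have err2 : C₂ * Real.log Y ^ A₂ * b ^ 2 * Λ ^ 4 / U ≤ C₂ * E₂ * Y * T := by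
    have h6 := hEr2 (Real.log Y) K hL hK0.le hK8
    calc C₂ * Real.log Y ^ A₂ * b ^ 2 * Λ ^ 4 / U
        = C₂ * Real.log Y ^ A₂ * b ^ 2 * (Λ ^ 4 / U) := by ring
      _ ≤ C₂ * Real.log Y ^ A₂ * b ^ 2 * (Y * Real.exp (-(Real.log Y / 25))) := by gcongr
      _ = C₂ * (Real.log Y ^ A₂ * Real.exp (6 * K) * Real.exp (-(Real.log Y / 25))) * Y * 1 := by
          rw [hb2]
          ring
      _ ≤ C₂ * E₂ * Y * T := by gcongr
  have err1 : 2 * cm * (C₁ * Real.log Y ^ A₁ * b * Λ ^ 2 / U) ≤ 8 * C₁ * E₁ * Y * T := by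
    have h6 := hEr1 (Real.log Y) K hL hK0.le hK8
    have h7 : Λ ^ 2 / U ≤ Y * Real.exp (-(Real.log Y / 25)) := by
      refine le_trans ?_ hΛ4
      refine div_le_div_of_nonneg_right ?_ hU0.le
      exact pow_le_pow_right₀ hΛ1 (by norm_num)
    have h8 : Real.exp K * b ≤ Real.exp (6 * K) := by
      rw [hbdef, ← Real.exp_add]
      exact Real.exp_le_exp.2 (by linarith)
    calc 2 * cm * (C₁ * Real.log Y ^ A₁ * b * Λ ^ 2 / U)
        = 2 * cm * (C₁ * Real.log Y ^ A₁ * b) * (Λ ^ 2 / U) := by ring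
      _ ≤ 2 * (4 * Real.exp K) * (C₁ * Real.log Y ^ A₁ * b) *
            (Y * Real.exp (-(Real.log Y / 25))) := by gcongr
      _ = 8 * C₁ * (Real.log Y ^ A₁ * (Real.exp K * b) * Real.exp (-(Real.log Y / 25))) * Y * 1 := by
          ring
      _ ≤ 8 * C₁ * (Real.log Y ^ A₁ * Real.exp (6 * K) * Real.exp (-(Real.log Y / 25))) * Y * 1 := by
          gcongr
      _ ≤ 8 * C₁ * E₁ * Y * T := by gcongr
  have err0 : cm ^ 2 * C₀ ≤ 16 * C₀ * Y * T := by
    have h7 : cm ^ 2 ≤ 16 * Real.exp (2 * K) := by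
      calc cm ^ 2 ≤ (4 * Real.exp K) ^ 2 := pow_le_pow_left₀ hcm0 hcm1 2
        _ = 16 * Real.exp (2 * K) := by
            rw [mul_pow, ← Real.exp_nat_mul]
            norm_num
    have h8 : Real.exp (2 * K) ≤ Y * T := by
      have e6 : (Y : ℝ) * T = Real.exp (Real.log Y + (2 * K - cM * K)) := by
        rw [Real.exp_add, Real.exp_log hY0]
      rw [e6]
      refine Real.exp_le_exp.2 ?_
      have h10 : cM * K ≤ 1 / 2 * K := mul_le_mul_of_nonneg_right hcM2 hK0.le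
      linarith
    calc cm ^ 2 * C₀ ≤ (16 * (Y * T)) * C₀ := by
          refine mul_le_mul_of_nonneg_right ?_ (by linarith)
          linarith
      _ = 16 * C₀ * Y * T := by ring
  -- the model
  have hmodel : Q2 S m (cfY Y h) - 2 * cm * Q1 S m (cfY Y h) + cm ^ 2 ≤ CM' * T := by
    refine model_limit hLim hU0 hfm hfb hf0 hS0 (N₀ := ⌊yk (Real.log Y) 0⌋₊ + 1) fun N hN => ?_
    have hN' : yk (Real.log Y) 0 < N := by
      have h7 := Nat.lt_floor_add_one (yk (Real.log Y) 0)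
      have h8 : (((⌊yk (Real.log Y) 0⌋₊ + 1 : ℕ)) : ℝ) ≤ N := by exact_mod_cast hN
      push_cast at h8
      linarith
    exact hMain Y K S m N hY hK hKL hS0 hM hN'
  -- conclusion
  have hfin : ∑' k : ℤ, P004.H1.ah Y k * (Dp S m (fun n => chi k n) * Fn (cfY Y h) k - cm) ^ 2 ≤
      (5040 * CM' + C₂ * E₂ + 8 * C₁ * E₁ + 16 * C₀) * Y * T := by
    rw [expand_sq hY0 hP0 hDb hMb]
    refine (combine hY0.le hcm0 m2 m1 m0 hmodel).trans ?_
    linarith
  calc P004.H1.c0⁻¹ * ∑' k : ℤ, P004.H1.ah Y k * (Dp S m (fun n => chi k n) * Fn (cfY Y h) k - cm) ^ 2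
      ≤ P004.H1.c0⁻¹ * ((5040 * CM' + C₂ * E₂ + 8 * C₁ * E₁ + 16 * C₀) * Y * T) := by gcongr
    _ = (P004.H1.c0⁻¹ * (5040 * CM' + C₂ * E₂ + 8 * C₁ * E₁ + 16 * C₀)) * Y * T := by ring
    _ ≤ _ := by
        gcongr
        exact le_max_right _ _

end H760

end P004G
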